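import Vale.Agent.P183.R2.H668.KW.Spec

/-!
Row A: a graph without four-cycles has few possible neighbourhoods.
-/

set_option autoImplicit false

namespace Vale.Agent.P183.R2.H668.KW

open Finset

theorem h21_choose (R j d : ℕ) (a : ℝ) (ha : 0 < a) (ha1 : a ≤ 1) (hj : j ≤ d) :
    (R.choose j : ℝ) ≤ Real.exp (a * R) * (1 / a) ^ d := by
  have h1 : (R.choose j : ℝ) * a ^ j ≤ (1 + a) ^ R := by
    by_cases h : j ≤ R
    · have e : (a + 1) ^ R = ∑ m ∈ range (R + 1), a ^ m * 1 ^ (R - m) * (R.choose m : ℝ) :=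
        add_pow a 1 R
      have : a ^ j * 1 ^ (R - j) * (R.choose j : ℝ) ≤
          ∑ m ∈ range (R + 1), a ^ m * 1 ^ (R - m) * (R.choose m : ℝ) := by
        apply Finset.single_le_sum (f := fun m => a ^ m * 1 ^ (R - m) * (R.choose m : ℝ))
        · intro i _
          positivity
        · simp
          omega
      rw [← e] at this
      rw [add_comm 1 a]
      simp only [one_pow, mul_one] at this
      linarith [mul_comm (a ^ j) (R.choose j : ℝ)]
    · rw [Nat.choose_eq_zero_of_lt (by omega)]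
      simp
      positivity
  have h2 : (1 + a) ^ R ≤ Real.exp (a * R) := by
    have h3 : 1 + a ≤ Real.exp a := by linarith [Real.add_one_le_exp a]
    calc (1 + a) ^ R ≤ (Real.exp a) ^ R := pow_le_pow_left₀ (by linarith) h3 R
      _ = Real.exp (a * R) := by rw [← Real.exp_nat_mul]; ring_nf
  have h4 : (R.choose j : ℝ) = (R.choose j : ℝ) * a ^ j * (1 / a) ^ j := by
    rw [mul_assoc, ← mul_pow, mul_one_div_cancel ha.ne', one_pow, mul_one]
  have h5 : (1 / a) ^ j ≤ (1 / a) ^ d :=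
    pow_le_pow_right₀ (by rw [le_div_iff₀ ha]; linarith) hj
  rw [h4]
  calc (R.choose j : ℝ) * a ^ j * (1 / a) ^ j ≤ Real.exp (a * R) * (1 / a) ^ j :=
        mul_le_mul_of_nonneg_right (h1.trans h2) (by positivity)
    _ ≤ Real.exp (a * R) * (1 / a) ^ d := mul_le_mul_of_nonneg_left h5 (by positivity)

/-- `log t` against the square root -/
theorem h21_log (t : ℝ) (ht : 1 ≤ t) : ∃ m : ℝ, 1 ≤ m ∧ Real.log t ≤ 8 * m ∧ m ^ 4 = √t := by
  refine ⟨t ^ (1 / 8 : ℝ), ?_, ?_, ?_⟩
  · exact Real.one_le_rpow ht (by norm_num)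
  · have := Real.log_le_rpow_div (show (0 : ℝ) ≤ t by linarith) (show (0 : ℝ) < 1 / 8 by norm_num)
    linarith
  · rw [← Real.rpow_natCast, ← Real.rpow_mul (by linarith), Real.sqrt_eq_rpow]
    norm_num

theorem h21_log1 (t : ℝ) (ht : 1 ≤ t) : Real.log t ≤ 8 * √t ∧
    (Real.log t) ^ 3 ≤ 512 * √t ∧ (Real.log t) ^ 4 ≤ 4096 * √t ∧ 1 ≤ √t := by
  obtain ⟨m, h1, h2, h3⟩ := h21_log t ht
  have h0 : 0 ≤ Real.log t := Real.log_nonneg ht
  have hm2 : 1 ≤ m ^ 2 := one_le_pow₀ h1
  have hm3 : 1 ≤ m ^ 3 := one_le_pow₀ h1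
  have hm4 : 1 ≤ m ^ 4 := one_le_pow₀ h1
  have a1 : m ≤ m ^ 4 := by
    have : m * 1 ≤ m * m ^ 3 := mul_le_mul_of_nonneg_left hm3 (by linarith)
    calc m = m * 1 := by ring
      _ ≤ m * m ^ 3 := this
      _ = m ^ 4 := by ring
  have a3 : m ^ 3 ≤ m ^ 4 := by
    have : m ^ 3 * 1 ≤ m ^ 3 * m := mul_le_mul_of_nonneg_left h1 (by linarith)
    calc m ^ 3 = m ^ 3 * 1 := by ring
      _ ≤ m ^ 3 * m := this
      _ = m ^ 4 := by ring
  rw [← h3]
  refine ⟨by linarith, ?_, ?_, hm4⟩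
  · have := pow_le_pow_left₀ h0 h2 3
    have e : (8 * m) ^ 3 = 512 * m ^ 3 := by ring
    linarith
  · have := pow_le_pow_left₀ h0 h2 4
    have e : (8 * m) ^ 4 = 4096 * m ^ 4 := by ring
    linarith

/-- the last numbers -/
theorem h21_num (t δ R q : ℕ) (ht : 1 ≤ t) (hδ : 2 ≤ δ) (β : ℝ)
    (hβ : β = (δ : ℝ) ^ 2 / (2 * t)) (hβ0 : 0 < β) (hδt2 : (δ : ℝ) ^ 2 ≤ 2 * t)
    (hR1 : (R : ℝ) * δ ≤ 2 * t) (hq2 : (q : ℝ) ≤ 2 * (Real.log t) ^ 3 + 1) :
    ((q : ℝ) + 1) * ((t : ℝ) ^ q * (Real.exp (β * R) * (1 / β) ^ (δ + 1))) ≤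
      Real.exp (9300 * √(t : ℝ)) := by
  have htR : (1 : ℝ) ≤ t := by exact_mod_cast ht
  have ht0 : (0 : ℝ) < t := by linarith
  have hδR : (2 : ℝ) ≤ δ := by exact_mod_cast hδ
  have hδ0 : (0 : ℝ) < δ := by linarith
  obtain ⟨l1, l3, l4, s1⟩ := h21_log1 t htR
  have l0 : 0 ≤ Real.log t := Real.log_nonneg htR
  have ss : √(t : ℝ) * √(t : ℝ) = t := Real.mul_self_sqrt ht0.le
  generalize √(t : ℝ) = s at *
  have hs0 : 0 ≤ s := by linarith
  have e1 : ((q : ℝ) + 1) ≤ Real.exp q := Real.add_one_le_exp _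
  have e2 : (t : ℝ) ^ q = Real.exp (q * Real.log t) := by
    rw [mul_comm, Real.exp_mul, Real.exp_log ht0, Real.rpow_natCast]
  have e3 : β * R ≤ 2 * s := by
    have : β * R ≤ δ := by
      have h10 : (R : ℝ) ≤ 2 * t / δ := by rw [le_div_iff₀ hδ0]; exact hR1
      calc β * R ≤ β * (2 * t / δ) := mul_le_mul_of_nonneg_left h10 hβ0.le
        _ = δ := by rw [hβ]; field_simp
    have h11 : (δ : ℝ) ≤ 2 * s := by
      by_contra hcon
      push Not at hcon
      have h30 := mul_self_lt_mul_self (by linarith : (0 : ℝ) ≤ 2 * s) hcon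
      have h31 : (δ : ℝ) ^ 2 = δ * δ := by ring
      have h32 : 2 * s * (2 * s) = 4 * (s * s) := by ring
      linarith
    linarith
  have e4 : (1 / β) ^ (δ + 1) ≤ Real.exp (8 * s) := by
    have hb : 0 < 1 / β := by positivity
    have h12 : (1 / β) ^ (δ + 1) = Real.exp (((δ : ℝ) + 1) * Real.log (1 / β)) := by
      rw [mul_comm, Real.exp_mul, Real.exp_log hb]
      rw [← Real.rpow_natCast]
      push_cast
      rfl
    have h13 : Real.log (1 / β) ≤ 2 * √(1 / β) := by
      have h14 := Real.log_sqrt hb.le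
      have h15 := Real.log_le_self (Real.sqrt_nonneg (1 / β))
      linarith
    have h16 : √(1 / β) ≤ 2 * s / δ := by
      rw [Real.sqrt_le_left (by positivity)]
      have : 1 / β = 2 * t / (δ : ℝ) ^ 2 := by
        rw [hβ]; field_simp
      rw [this, div_pow]
      apply div_le_div_of_nonneg_right _ (by positivity)
      have : (2 * s) ^ 2 = 4 * (s * s) := by ring
      linarith
    rw [h12]
    apply Real.exp_le_exp.2
    have h17 : Real.log (1 / β) ≤ 4 * s / δ := by
      calc Real.log (1 / β) ≤ 2 * √(1 / β) := h13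
        _ ≤ 2 * (2 * s / δ) := by linarith
        _ = 4 * s / δ := by ring
    have h18 : ((δ : ℝ) + 1) * Real.log (1 / β) ≤ ((δ : ℝ) + 1) * (4 * s / δ) :=
      mul_le_mul_of_nonneg_left h17 (by linarith)
    have h19 : ((δ : ℝ) + 1) * (4 * s / δ) ≤ 8 * s := by
      rw [mul_div_assoc', div_le_iff₀ hδ0]
      have h20 : 0 ≤ s * (δ - 1) := mul_nonneg hs0 (by linarith)
      have h21 : 8 * s * (δ : ℝ) - ((δ : ℝ) + 1) * (4 * s) = 4 * (s * (δ - 1)) := by ring
      linarith
    linarith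
  have hfin : ((q : ℝ) + 1) * ((t : ℝ) ^ q * (Real.exp (β * R) * (1 / β) ^ (δ + 1))) ≤
      Real.exp q * (Real.exp (q * Real.log t) * (Real.exp (2 * s) * Real.exp (8 * s))) := by
    rw [e2]
    have hM2 : Real.exp (β * R) * (1 / β) ^ (δ + 1) ≤ Real.exp (2 * s) * Real.exp (8 * s) :=
      mul_le_mul (Real.exp_le_exp.2 e3) e4 (by positivity) (by positivity)
    apply mul_le_mul e1 _ (by positivity) (by positivity)
    exact mul_le_mul_of_nonneg_left hM2 (by positivity)
  refine hfin.trans ?_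
  rw [← Real.exp_add, ← Real.exp_add, ← Real.exp_add]
  apply Real.exp_le_exp.2
  have f1 : (q : ℝ) * Real.log t ≤ (2 * (Real.log t) ^ 3 + 1) * Real.log t :=
    mul_le_mul_of_nonneg_right hq2 l0
  have f2 : (2 * (Real.log t) ^ 3 + 1) * Real.log t = 2 * (Real.log t) ^ 4 + Real.log t := by ring
  linarith

/-- the case of large neighbourhoods -/
theorem h21_large (h1 : StA1) (h2 : StA2) {V : Type} [Fintype V] [DecidableEq V]
    (G : SimpleGraph V) [DecidableRel G.Adj] (hG : C4Free G) (T : Finset V)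
    (hT : ∀ x y, G.Adj x y → x ∈ T) (t : ℕ) (htc : T.card = t) (δ : ℕ) (hδ : 2 ≤ δ)
    (ht : 1 ≤ t)
    (hdeg : ∀ x ∈ T, δ ≤ (univ.filter (fun y => G.Adj x y)).card)
    (hl : √(t : ℝ) ≤ δ * Real.log t) :
    ((((T.powersetCard (δ + 1)).filter (fun I => ∀ x ∈ I, ∀ y ∈ I, x ≠ y →
      ¬ (x ≠ y ∧ ∃ w, G.Adj w x ∧ G.Adj w y))).card : ℕ) : ℝ) ≤
      Real.exp (9300 * √(t : ℝ)) := by
  have htR : (1 : ℝ) ≤ t := by exact_mod_cast ht
  have ht0 : (0 : ℝ) < t := by linarith
  have hδR : (2 : ℝ) ≤ δ := by exact_mod_cast hδ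
  have hδ0 : (0 : ℝ) < δ := by linarith
  have hTne : T.Nonempty := by
    rw [← Finset.card_pos]; omega
  obtain ⟨l1, l3, l4, s1⟩ := h21_log1 t htR
  have l0 : 0 ≤ Real.log t := Real.log_nonneg htR
  set s : ℝ := √(t : ℝ) with hs
  have ss : s * s = t := Real.mul_self_sqrt ht0.le
  set β : ℝ := (δ : ℝ) ^ 2 / (2 * t) with hβ
  have hβ0 : 0 < β := by positivity
  have key := h2 V G hG T hT δ (by omega) hdeg
  rw [htc] at key
  have hβ1 : β ≤ 1 := by
    obtain ⟨x, hx, hx2⟩ := key T (Finset.Subset.refl T)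
      (by rw [htc]; exact Nat.mul_le_mul_right t hδ) hTne
    rw [htc] at hx2
    have hx3 : (((T.filter (fun y => x ≠ y ∧ ∃ w, G.Adj w x ∧ G.Adj w y)).card : ℕ) : ℝ) ≤ t := by
      rw [← htc]
      exact_mod_cast Finset.card_filter_le _ _
    have : β * t ≤ 1 * t := by linarith
    exact le_of_mul_le_mul_right this ht0
  have hδt2 : (δ : ℝ) ^ 2 ≤ 2 * t := by
    rw [hβ, div_le_one (by positivity)] at hβ1
    exact hβ1
  have hδt : (δ : ℝ) ≤ t := by nlinarith
  set R : ℕ := 2 * t / δ with hR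
  have hR1 : (R : ℝ) * δ ≤ 2 * t := by
    have : R * δ ≤ 2 * t := Nat.div_mul_le_self _ _
    exact_mod_cast this
  have hR2 : (2 : ℝ) * t < (R + 1) * δ := by
    have : 2 * t < (R + 1) * δ := by
      rw [hR]
      exact Nat.lt_mul_of_div_lt (Nat.lt_succ_self _) (by omega)
    exact_mod_cast this
  set q : ℕ := ⌈2 * t * Real.log δ / (δ : ℝ) ^ 2⌉₊ with hq
  have hlδ0 : 0 ≤ Real.log δ := Real.log_nonneg (by linarith)
  have hlδ : Real.log δ ≤ Real.log t := Real.log_le_log hδ0 hδt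
  have hq1 : 2 * t * Real.log δ / (δ : ℝ) ^ 2 ≤ q := Nat.le_ceil _
  have hq2 : (q : ℝ) ≤ 2 * (Real.log t) ^ 3 + 1 := by
    have h3 : (q : ℝ) < 2 * t * Real.log δ / (δ : ℝ) ^ 2 + 1 :=
      Nat.ceil_lt_add_one (by positivity)
    have h4 : (t : ℝ) ≤ (δ : ℝ) ^ 2 * (Real.log t) ^ 2 := by
      have := mul_self_le_mul_self (Real.sqrt_nonneg _) hl
      nlinarith
    have h5 : 2 * t * Real.log δ / (δ : ℝ) ^ 2 ≤ 2 * (Real.log t) ^ 3 := by
      rw [div_le_iff₀ (by positivity)]
      calc 2 * t * Real.log δ ≤ 2 * t * Real.log t :=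
            mul_le_mul_of_nonneg_left hlδ (by positivity)
        _ ≤ 2 * ((δ : ℝ) ^ 2 * (Real.log t) ^ 2) * Real.log t := by
            apply mul_le_mul_of_nonneg_right _ l0
            linarith
        _ = 2 * (Real.log t) ^ 3 * (δ : ℝ) ^ 2 := by ring
    linarith
  have hβq : (1 - β) ^ q * t ≤ R := by
    have h3 : (1 - β) ^ q ≤ Real.exp (-(β * q)) := by
      have h4 : 1 - β ≤ Real.exp (-β) := by linarith [Real.add_one_le_exp (-β)]
      calc (1 - β) ^ q ≤ (Real.exp (-β)) ^ q := pow_le_pow_left₀ (by linarith) h4 q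
        _ = Real.exp (-(β * q)) := by rw [← Real.exp_nat_mul]; ring_nf
    have h5 : Real.log δ ≤ β * q := by
      have h6 : β * (2 * t * Real.log δ / (δ : ℝ) ^ 2) = Real.log δ := by
        rw [hβ]; field_simp
      calc Real.log δ = β * (2 * t * Real.log δ / (δ : ℝ) ^ 2) := h6.symm
        _ ≤ β * q := mul_le_mul_of_nonneg_left hq1 hβ0.le
    have h7 : Real.exp (-(β * q)) ≤ 1 / δ := by
      calc Real.exp (-(β * q)) ≤ Real.exp (-Real.log δ) := Real.exp_le_exp.2 (by linarith)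
        _ = 1 / δ := by rw [Real.exp_neg, Real.exp_log hδ0, one_div]
    have h8 : (1 - β) ^ q * t ≤ 1 / δ * t := mul_le_mul_of_nonneg_right (h3.trans h7) ht0.le
    have h9 : 1 / (δ : ℝ) * t ≤ R := by
      rw [one_div, inv_mul_le_iff₀ hδ0]
      nlinarith
    exact h8.trans h9
  have cnt := h1 V (fun x y => x ≠ y ∧ ∃ w, G.Adj w x ∧ G.Adj w y)
    (fun x y ⟨a, w, b, c⟩ => ⟨a.symm, w, c, b⟩) β R hβ0.le hβ1 T
    (by
      intro B' hB' hlt
      have hBne : B'.Nonempty :=
        Finset.card_pos.1 (lt_of_le_of_lt (Nat.zero_le _) hlt)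
      obtain ⟨x, hx, hx2⟩ := key B' hB'
        (by
          have : 2 * t < B'.card * δ := (Nat.div_lt_iff_lt_mul (by omega)).1 hlt
          rw [mul_comm δ]
          exact this.le) hBne
      exact ⟨x, hx, hx2⟩)
    q (δ + 1) (by rw [htc]; exact hβq)
  rw [htc] at cnt
  have cntR : ((((T.powersetCard (δ + 1)).filter (fun I => ∀ x ∈ I, ∀ y ∈ I, x ≠ y →
      ¬ (x ≠ y ∧ ∃ w, G.Adj w x ∧ G.Adj w y))).card : ℕ) : ℝ) ≤
      ∑ s ∈ range (q + 1), (t.choose s : ℝ) * (R.choose (δ + 1 - s) : ℝ) := by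
    exact_mod_cast cnt
  refine cntR.trans ?_
  set M : ℝ := Real.exp (β * R) * (1 / β) ^ (δ + 1) with hM
  have hM0 : 0 ≤ M := by positivity
  have hsum : ∑ s ∈ range (q + 1), (t.choose s : ℝ) * (R.choose (δ + 1 - s) : ℝ) ≤
      (q + 1) * ((t : ℝ) ^ q * M) := by
    calc ∑ s ∈ range (q + 1), (t.choose s : ℝ) * (R.choose (δ + 1 - s) : ℝ)
        ≤ ∑ s ∈ range (q + 1), (t : ℝ) ^ q * M := by
          apply Finset.sum_le_sum
          intro i hi
          have hi' : i ≤ q := by simpa [Nat.lt_succ_iff] using hi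
          have b1 : (t.choose i : ℝ) ≤ (t : ℝ) ^ q := by
            have : (t.choose i : ℝ) ≤ (t : ℝ) ^ i := by
              exact_mod_cast Nat.choose_le_pow t i
            exact this.trans (pow_le_pow_right₀ htR hi')
          have b2 := h21_choose R (δ + 1 - i) (δ + 1) β hβ0 hβ1 (Nat.sub_le _ _)
          exact mul_le_mul b1 b2 (by positivity) (by positivity)
      _ = (q + 1) * ((t : ℝ) ^ q * M) := by
          rw [Finset.sum_const, card_range, nsmul_eq_mul]
          push_cast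
          ring
  refine hsum.trans ?_
  exact h21_num t δ R q ht hδ β hβ hβ0 hδt2 hR1 hq2

/-- the sets of a given size -/
theorem h21_size (h1 : StA1) (h2 : StA2) {V : Type} [Fintype V] [DecidableEq V]
    (G : SimpleGraph V) [DecidableRel G.Adj] (hG : C4Free G) (T : Finset V)
    (hT : ∀ x y, G.Adj x y → x ∈ T) (t : ℕ) (htc : T.card = t) (ht : 1 ≤ t) (d : ℕ)
    (S : Finset (Finset V)) (hS : ∀ I ∈ S, I ∈ nbhds G T ∧ I.card = d) :
    (S.card : ℝ) ≤ Real.exp (9300 * √(t : ℝ)) := by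
  have htR : (1 : ℝ) ≤ t := by exact_mod_cast ht
  have ht0 : (0 : ℝ) < t := by linarith
  obtain ⟨l1, l3, l4, s1⟩ := h21_log1 t htR
  have l0 : 0 ≤ Real.log t := Real.log_nonneg htR
  have hsub : S ⊆ T.powersetCard d := by
    intro I hI
    rw [Finset.mem_powersetCard]
    exact ⟨(hS I hI).1.1, (hS I hI).2⟩
  have small : (d : ℝ) * Real.log t ≤ 9300 * √(t : ℝ) →
      (S.card : ℝ) ≤ Real.exp (9300 * √(t : ℝ)) := by
    intro h
    have a1 : (S.card : ℝ) ≤ (t : ℝ) ^ d := by
      have : S.card ≤ t ^ d := by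
        calc S.card ≤ (T.powersetCard d).card := Finset.card_le_card hsub
          _ = t.choose d := by rw [Finset.card_powersetCard, htc]
          _ ≤ t ^ d := Nat.choose_le_pow t d
      exact_mod_cast this
    have a2 : (t : ℝ) ^ d = Real.exp (d * Real.log t) := by
      rw [mul_comm, Real.exp_mul, Real.exp_log ht0, Real.rpow_natCast]
    rw [a2] at a1
    exact a1.trans (Real.exp_le_exp.2 h)
  by_cases hd : d ≤ 2
  · apply small
    have : (d : ℝ) ≤ 2 := by exact_mod_cast hd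
    have : (d : ℝ) * Real.log t ≤ 2 * Real.log t := mul_le_mul_of_nonneg_right this l0
    linarith
  · obtain ⟨δ, rfl⟩ : ∃ δ, d = δ + 1 := ⟨d - 1, by omega⟩
    by_cases hl : √(t : ℝ) ≤ δ * Real.log t
    · by_cases hne : S.Nonempty
      · obtain ⟨I, hI⟩ := hne
        have hdeg : ∀ x ∈ T, δ ≤ (univ.filter (fun y => G.Adj x y)).card := by
          intro x hx
          have b1 := (hS I hI).1.2.1 x hx
          rw [(hS I hI).2] at b1
          have b2 : {y | G.Adj x y}.ncard = (univ.filter (fun y => G.Adj x y)).card := by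
            rw [Set.ncard_eq_toFinset_card']
            congr 1
            ext y
            simp
          omega
        refine le_trans ?_ (h21_large h1 h2 G hG T hT t htc δ (by omega) ht hdeg hl)
        have : S.card ≤ ((T.powersetCard (δ + 1)).filter (fun I => ∀ x ∈ I, ∀ y ∈ I, x ≠ y →
            ¬ (x ≠ y ∧ ∃ w, G.Adj w x ∧ G.Adj w y))).card := by
          apply Finset.card_le_card
          intro J hJ
          rw [Finset.mem_filter]
          refine ⟨hsub hJ, ?_⟩
          intro x hx y hy hxy ⟨_, hw⟩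
          exact (hS J hJ).1.2.2 x hx y hy hxy hw
        exact_mod_cast this
      · rw [Finset.not_nonempty_iff_eq_empty] at hne
        rw [hne]
        simp
        positivity
    · apply small
      push Not at hl
      push_cast
      linarith

theorem rowA (h1 : StA1) (h2 : StA2) : StA := by
  refine ⟨9400, by norm_num, ?_⟩
  intro V _ G hG T hT
  classical
  have : Fintype V := Fintype.ofFinite V
  rw [← Real.sqrt_eq_rpow]
  set t : ℕ := T.card with htc
  have hfin : nbhds G T ⊆ ((T.powerset : Finset (Finset V)) : Set (Finset V)) := by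
    intro I hI
    rw [Finset.mem_coe, Finset.mem_powerset]
    exact hI.1
  rcases Nat.eq_zero_or_pos t with h0 | hpos
  · have hT0 : T = ∅ := Finset.card_eq_zero.1 (by omega)
    have a1 : (nbhds G T).ncard ≤ 1 := by
      have := Set.ncard_le_ncard hfin (Finset.finite_toSet _)
      rw [Set.ncard_coe_finset, hT0] at this
      simpa [hT0] using this
    rw [h0]
    have e : Real.exp (9400 * √(((0 : ℕ) : ℝ))) = 1 := by simp
    rw [e]
    exact_mod_cast a1
  · have htR : (1 : ℝ) ≤ t := by exact_mod_cast hpos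
    have ht0 : (0 : ℝ) < t := by linarith
    obtain ⟨l1, l3, l4, s1⟩ := h21_log1 t htR
    set S : ℕ → Finset (Finset V) := fun d => T.powerset.filter (fun I => I ∈ nbhds G T ∧ I.card = d)
      with hSdef
    have a1 : nbhds G T ⊆ (((range (t + 1)).biUnion S : Finset (Finset V)) : Set (Finset V)) := by
      intro I hI
      rw [Finset.mem_coe, Finset.mem_biUnion]
      have hc : I.card ≤ t := Finset.card_le_card hI.1
      refine ⟨I.card, by simp; omega, ?_⟩
      exact Finset.mem_filter.2 ⟨Finset.mem_powerset.2 hI.1, hI, rfl⟩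
    have a2 : (nbhds G T).ncard ≤ ∑ d ∈ range (t + 1), (S d).card := by
      have := Set.ncard_le_ncard a1 (Finset.finite_toSet _)
      rw [Set.ncard_coe_finset] at this
      exact this.trans Finset.card_biUnion_le
    have a3 : ((nbhds G T).ncard : ℝ) ≤ ∑ d ∈ range (t + 1), ((S d).card : ℝ) := by
      exact_mod_cast a2
    have a4 : ∑ d ∈ range (t + 1), ((S d).card : ℝ) ≤ (t + 1) * Real.exp (9300 * √(t : ℝ)) := by
      calc ∑ d ∈ range (t + 1), ((S d).card : ℝ)
          ≤ ∑ d ∈ range (t + 1), Real.exp (9300 * √(t : ℝ)) := by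
            apply Finset.sum_le_sum
            intro d _
            apply h21_size h1 h2 G hG T hT t htc.symm hpos d (S d)
            intro I hI
            rw [hSdef] at hI
            simp only [Finset.mem_filter] at hI
            exact hI.2
        _ = (t + 1) * Real.exp (9300 * √(t : ℝ)) := by
            rw [Finset.sum_const, card_range, nsmul_eq_mul]
            push_cast
            ring
    have a5 : (t : ℝ) + 1 ≤ Real.exp (1 + Real.log t) := by
      rw [Real.exp_add, Real.exp_log ht0]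
      have : (2 : ℝ) ≤ Real.exp 1 := by linarith [Real.add_one_le_exp (1 : ℝ)]
      nlinarith
    refine (a3.trans a4).trans ?_
    calc ((t : ℝ) + 1) * Real.exp (9300 * √(t : ℝ))
        ≤ Real.exp (1 + Real.log t) * Real.exp (9300 * √(t : ℝ)) :=
          mul_le_mul_of_nonneg_right a5 (by positivity)
      _ = Real.exp (1 + Real.log t + 9300 * √(t : ℝ)) := by rw [← Real.exp_add]
      _ ≤ Real.exp (9400 * √(t : ℝ)) := Real.exp_le_exp.2 (by linarith)

end Vale.Agent.P183.R2.H668.KW
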